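import Vale.Agent.Lib.P184.ClassForm
import Vale.Agent.Lib.P184.Walls
import Vale.Agent.Lib.P184.Red.Main
import Vale.Agent.Lib.P184.Hyp.GroupMain
import Vale.Agent.Lib.P184.CatZero
import Vale.Agent.Lib.P184.CentCrit

/-!
# P184: vanishing of Hattori-Stallings coefficients over `ℓ¹(G)`: all results in one statement

`e` is a `q × q` matrix with entries in `ℓ¹(G)` (absolutely summable functions `G → ℂ`) which is
idempotent for the convolution product; `τ_C(e) = ∑_{x ∈ C} ∑_i e_ii(x)`.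

A. (cocycle criterion) `τ_C(e) = 0` if conjugation on `C` carries a real cocycle, bounded on `C` for
   each group element, which does not vanish on the diagonal.
B. (centralizer criterion) for a subadditive `ℓ` on `G`: `τ_[g](e) = 0` if the centralizer of `g` has
   a real character `φ` with `|φ| ≤ ℓ`, `φ g ≠ 0`; or if `ℓ (g ^ j) ≥ c |j|` and `⟨g⟩` has finite index
   in the centralizer, or the centralizer is amenable.
C. (isometric actions) if `dist o (g ^ n • o) ≥ c n`: `τ_[g](e) = 0` for spaces with (B1), for spaces with the CN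
   inequality, and for Gromov hyperbolic spaces if `g` is WPD.
D. (walls) `τ_[g](e) = 0` if `g` skewers a half-space of a `G`-invariant wall structure.
E. (linear representations over any field) `τ_[g](e) = 0` if `ρ g` is not quasi-unipotent; in positive characteristic if
   `ρ g` has infinite order.
F. (geometric actions) the full statement of Q1 for metrically proper cobounded actions on proper spaces with the CN
   inequality and on Gromov hyperbolic spaces with approximate midpoints.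
-/

namespace Vale.Agent.Results.P184.AllResults

open scoped BigOperators Pointwise

universe u v

theorem result {G : Type u} [Group G] {q : ℕ} (e : Matrix (Fin q) (Fin q) (G → ℂ))
    (hsum : ∀ i j, Summable fun g => ‖e i j g‖)
    (hidem : ∀ i j g, ∑ k, ∑' h, e i k h * e k j (h⁻¹ * g) = e i j g) :
    -- A
    (∀ (C : ConjClasses G) (c : G → G → ℝ),
      (∀ x ∈ C.carrier, ∀ h k, c x (h * k) = c x h + c (h⁻¹ * x * h) k) →
      (∀ h, ∃ B, ∀ x ∈ C.carrier, |c x h| ≤ B) → (∃ x ∈ C.carrier, c x x ≠ 0) →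
      ∑' x : C.carrier, ∑ i, e i i x = 0) ∧
    -- B
    (∀ (ℓ : G → ℝ), (∀ a b, ℓ (a * b) ≤ ℓ a + ℓ b) → ∀ g : G,
      ((∃ φ : G → ℝ, (∀ a b, Commute a g → Commute b g → φ (a * b) = φ a + φ b) ∧
          (∀ z, Commute z g → |φ z| ≤ ℓ z) ∧ φ g ≠ 0) →
        ∑' x : (ConjClasses.mk g).carrier, ∑ i, e i i x = 0) ∧
      ((∃ c : ℝ, 0 < c ∧ ∀ j : ℤ, c * |(j : ℝ)| ≤ ℓ (g ^ j)) →
        (Subgroup.zpowers g).relIndex (Subgroup.centralizer {g}) ≠ 0 →
        ∑' x : (ConjClasses.mk g).carrier, ∑ i, e i i x = 0) ∧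
      ((∃ c : ℝ, 0 < c ∧ ∀ j : ℤ, c * |(j : ℝ)| ≤ ℓ (g ^ j)) →
        (∃ m : (Subgroup.centralizer {g} → ℝ) → ℝ,
          (∀ f h : Subgroup.centralizer {g} → ℝ, (∃ B, ∀ z, |f z| ≤ B) → (∃ B, ∀ z, |h z| ≤ B) →
            m (fun z => f z + h z) = m f + m h) ∧
          (∀ (f : Subgroup.centralizer {g} → ℝ) (B : ℝ), (∃ B', ∀ z, |f z| ≤ B') →
            (∀ z, f z ≤ B) → m f ≤ B) ∧
          (∀ (f : Subgroup.centralizer {g} → ℝ) (a : Subgroup.centralizer {g}),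
            (∃ B, ∀ z, |f z| ≤ B) → m (fun z => f (a * z)) = m f)) →
        ∑' x : (ConjClasses.mk g).carrier, ∑ i, e i i x = 0)) ∧
    -- C and F
    (∀ (X : Type v) [MetricSpace X] [MulAction G X],
      (∀ (g : G) (x y : X), dist (g • x) (g • y) = dist x y) →
      ((∀ r η : ℝ, 0 < η → ∃ R : ℝ, ∀ x₁ x₂ y₁ y₂ : X, dist x₁ x₂ ≤ r → dist y₁ y₂ ≤ r →
          R ≤ dist x₁ y₁ → dist x₁ y₂ + dist x₂ y₁ ≤ dist x₁ y₁ + dist x₂ y₂ + η) →
        ∀ (g : G) (o : X) (c : ℝ), 0 < c → (∀ n : ℕ, c * n ≤ dist o (g ^ n • o)) →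
          ∑' x : (ConjClasses.mk g).carrier, ∑ i, e i i x = 0) ∧
      ((∀ x y : X, ∃ m, ∀ z, dist z m ^ 2 ≤ (dist z x ^ 2 + dist z y ^ 2) / 2 - dist x y ^ 2 / 4) →
        ∀ (g : G) (o : X) (c : ℝ), 0 < c → (∀ n : ℕ, c * n ≤ dist o (g ^ n • o)) →
          ∑' x : (ConjClasses.mk g).carrier, ∑ i, e i i x = 0) ∧
      ((∃ δ : ℝ, ∀ x y z w : X,
          dist x z + dist y w ≤ max (dist x y + dist z w) (dist x w + dist y z) + 2 * δ) →
        ∀ (g : G) (o : X) (c : ℝ), 0 < c → (∀ n : ℕ, c * n ≤ dist o (g ^ n • o)) →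
          (∀ R : ℝ, ∃ N : ℕ,
            {h : G | dist o (h • o) ≤ R ∧ dist (g ^ N • o) (h • g ^ N • o) ≤ R}.Finite) →
          ∑' x : (ConjClasses.mk g).carrier, ∑ i, e i i x = 0) ∧
      ((∀ x y : X, ∃ m, ∀ z, dist z m ^ 2 ≤ (dist z x ^ 2 + dist z y ^ 2) / 2 - dist x y ^ 2 / 4) →
        ProperSpace X →
        (∀ (o : X) (R : ℝ), {g : G | dist (g • o) o ≤ R}.Finite) →
        (∃ (o : X) (R : ℝ), ∀ y : X, ∃ g : G, dist (g • o) y ≤ R) →
        ∃ F : Finset (ConjClasses G), (∀ C ∈ F, ∀ x ∈ C.carrier, IsOfFinOrder x) ∧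
          ∀ C ∉ F, ∑' x : C.carrier, ∑ i, e i i x = 0) ∧
      ((∃ δ : ℝ, ∀ x y z w : X,
          dist x z + dist y w ≤ max (dist x y + dist z w) (dist x w + dist y z) + 2 * δ) →
        (∃ μ : ℝ, ∀ a b : X, ∃ m, dist a m ≤ dist a b / 2 + μ ∧ dist m b ≤ dist a b / 2 + μ) →
        (∀ (o : X) (R : ℝ), {g : G | dist (g • o) o ≤ R}.Finite) →
        (∃ (o : X) (R : ℝ), ∀ y : X, ∃ g : G, dist (g • o) y ≤ R) →
        ∃ F : Finset (ConjClasses G), (∀ C ∈ F, ∀ x ∈ C.carrier, IsOfFinOrder x) ∧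
          ∀ C ∉ F, ∑' x : C.carrier, ∑ i, e i i x = 0)) ∧
    -- D
    (∀ (Y : Type v) [MulAction G Y] (W : Set (Set Y)),
      (∀ h : G, ∀ A ∈ W, h • A ∈ W) →
      (∀ y y' : Y, {A | A ∈ W ∧ y ∈ A ∧ y' ∉ A}.Finite) →
      ∀ (g : G) (A : Set Y), A ∈ W → g • A ⊂ A →
        ∑' x : (ConjClasses.mk g).carrier, ∑ i, e i i x = 0) ∧
    -- E
    (∀ (F : Type v) [Field F] (n : ℕ) (ρ : G →* Matrix.GeneralLinearGroup (Fin n) F) (g : G),
      ((∀ m : ℕ, 0 < m → ((ρ g : Matrix (Fin n) (Fin n) F) ^ m - 1) ^ n ≠ 0) →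
        ∑' x : (ConjClasses.mk g).carrier, ∑ i, e i i x = 0) ∧
      (∀ (p : ℕ) [Fact p.Prime] [CharP F p], (∀ m : ℕ, 0 < m → ρ g ^ m ≠ 1) →
        ∑' x : (ConjClasses.mk g).carrier, ∑ i, e i i x = 0)) :=
  ⟨fun C c h1 h2 h3 => Vale.Agent.Lib.P184.trace_vanish_of_class_cocycle e hsum hidem C c h1 h2 h3,
    fun ℓ hℓ g => Vale.Agent.Lib.P184.CentCrit.centralizer_criterion e hsum hidem ℓ hℓ g,
    fun X _ _ hiso =>
      ⟨(Vale.Agent.Lib.P184.CatZero.catzero_groups e hsum hidem hiso).1, (Vale.Agent.Lib.P184.CatZero.catzero_groups e hsum hidem hiso).2.1,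
        fun ⟨_, hyp⟩ g o c hc0 hc hwpd =>
          Vale.Agent.Lib.P184.Hyp.trace_vanish_of_wpd e hsum hidem hiso hyp g o c hc0 hc hwpd,
        (Vale.Agent.Lib.P184.CatZero.catzero_groups e hsum hidem hiso).2.2,
        fun ⟨_, hyp⟩ ⟨μ, hmid⟩ hproper ⟨o, R, hcob⟩ =>
          Vale.Agent.Lib.P184.Hyp.q1_of_geometric_hyp e hsum hidem hiso hyp μ hmid hproper o R hcob⟩,
    fun _ _ W hinv hfin g A hA hskew =>
      Vale.Agent.Lib.P184.trace_vanish_of_skewer e hsum hidem W hinv hfin g A hA hskew,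
    fun _ _ _ ρ g =>
      ⟨fun hg => Vale.Agent.Lib.P184.Red.trace_vanish_of_field e hsum hidem ρ g hg,
        fun p _ _ hg => Vale.Agent.Lib.P184.Lin.trace_vanish_of_charP e hsum hidem p ρ g hg⟩⟩

end Vale.Agent.Results.P184.AllResults
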