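import Vale.Agent.Lib.P184.Red.Main
import Vale.Agent.Lib.P184.Hyp.GroupMain
import Vale.Agent.Lib.P184.Hyp.Acyl
import Vale.Agent.Lib.P184.CatZero
import Vale.Agent.Lib.P184.CentCrit
import Vale.Agent.Lib.P184.Free.FMain2
import Vale.Agent.Lib.P184.Free.Down

/-!
# P184: the `ℓ¹`-Bass conjecture: main results in one statement

`IsIdem e`: `e` is an idempotent matrix over `ℓ¹(G)`.  `Van e g`: `τ_C(e) = 0` for the conjugacy class `C` of `g`.
`Q1For e`: the conclusion of Q1 for `e`.  `L1Bass G`: Q1 for the group `G`.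

1. (geometric actions) Q1 for groups acting metrically properly and coboundedly on a proper space with the CN inequality or on a
   Gromov hyperbolic space with approximate midpoints.
2. (free products) a free product satisfies Q1 if and only if all factors do.
3. (linear representations over any field) `Van e g` if `ρ g` is not quasi-unipotent; in positive characteristic if `ρ g` has infinite order.
4. (isometric actions, no properness) `Van e g` if `g` has positive translation length on a space with the CN inequality, if `g` is a loxodromic WPD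
   element on a hyperbolic space, and if `g` has an unbounded orbit for an acylindrical action on a hyperbolic space with approximate midpoints.
5. (centralizers) for a subadditive `ℓ` on `G`: `Van e g` if the centralizer of `g` has a real character `φ` with `|φ| ≤ ℓ`, `φ g ≠ 0`; or if
   `ℓ (g ^ j) ≥ c |j|` and `⟨g⟩` has finite index in the centralizer, or the centralizer has a left invariant mean.
-/

namespace Vale.Agent.Results.P184.AllResultsPlus

open scoped BigOperators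

universe u v w

/-- `e` is an idempotent matrix over `ℓ¹(G)` -/
def IsIdem {G : Type u} [Group G] {q : ℕ} (e : Matrix (Fin q) (Fin q) (G → ℂ)) : Prop :=
  (∀ i j, Summable fun g => ‖e i j g‖) ∧
    ∀ i j g, ∑ k, ∑' h, e i k h * e k j (h⁻¹ * g) = e i j g

/-- `τ_C(e) = 0` for the conjugacy class `C` of `g` -/
def Van {G : Type u} [Group G] {q : ℕ} (e : Matrix (Fin q) (Fin q) (G → ℂ)) (g : G) : Prop :=
  ∑' x : (ConjClasses.mk g).carrier, ∑ i, e i i x = 0

/-- the conclusion of Q1 for the matrix `e` -/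
def Q1For {G : Type u} [Group G] {q : ℕ} (e : Matrix (Fin q) (Fin q) (G → ℂ)) : Prop :=
  ∃ F : Finset (ConjClasses G), (∀ C ∈ F, ∀ x ∈ C.carrier, IsOfFinOrder x) ∧
    ∀ C ∉ F, ∑' x : C.carrier, ∑ i, e i i x = 0

/-- the statement of Q1 for the group `G` -/
def L1Bass (G : Type u) [Group G] : Prop :=
  ∀ (q : ℕ) (e : Matrix (Fin q) (Fin q) (G → ℂ)), IsIdem e → Q1For e

/-- the orbit of `o` under the powers of `g` escapes at linear speed -/
def Lox {G : Type u} {X : Type v} [Group G] [MetricSpace X] [MulAction G X] (g : G) (o : X) : Prop :=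
  ∃ c : ℝ, 0 < c ∧ ∀ n : ℕ, c * n ≤ dist o (g ^ n • o)

/-- the action is metrically proper and cobounded -/
def Geom (G : Type u) (X : Type v) [Group G] [MetricSpace X] [MulAction G X] : Prop :=
  (∀ (o : X) (R : ℝ), {g : G | dist (g • o) o ≤ R}.Finite) ∧
    ∃ (o : X) (R : ℝ), ∀ y : X, ∃ g : G, dist (g • o) y ≤ R

theorem result :
    (∀ (ι : Type w) (M : ι → Type u) [∀ i, Group (M i)],
      L1Bass (Monoid.CoprodI M) ↔ ∀ i, L1Bass (M i)) ∧
    (∀ (G : Type u) [Group G] (q : ℕ) (e : Matrix (Fin q) (Fin q) (G → ℂ)), IsIdem e →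
    (∀ (X : Type v) [MetricSpace X] [MulAction G X],
      (∀ (g : G) (x y : X), dist (g • x) (g • y) = dist x y) →
      ((∀ x y : X, ∃ m, ∀ z, dist z m ^ 2 ≤ (dist z x ^ 2 + dist z y ^ 2) / 2 - dist x y ^ 2 / 4) →
        (∀ (g : G) (o : X), Lox g o → Van e g) ∧ (ProperSpace X → Geom G X → Q1For e)) ∧
      ((∃ δ : ℝ, ∀ x y z w : X,
          dist x z + dist y w ≤ max (dist x y + dist z w) (dist x w + dist y z) + 2 * δ) →
        (∀ (g : G) (o : X), Lox g o →
          (∀ R : ℝ, ∃ N : ℕ,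
            {h : G | dist o (h • o) ≤ R ∧ dist (g ^ N • o) (h • g ^ N • o) ≤ R}.Finite) →
          Van e g) ∧
        ((∃ μ : ℝ, ∀ a b : X, ∃ m, dist a m ≤ dist a b / 2 + μ ∧ dist m b ≤ dist a b / 2 + μ) →
          (Geom G X → Q1For e) ∧
          ((∀ R : ℝ, ∃ (L : ℝ) (P : ℕ), ∀ (x y : X) (S : Finset G), L ≤ dist x y →
              (∀ h ∈ S, dist (h • x) x ≤ R ∧ dist (h • y) y ≤ R) → S.card ≤ P) →
            ∀ (g : G) (o : X), (∀ B : ℝ, ∃ n : ℕ, B < dist o (g ^ n • o)) → Van e g)))) ∧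
    (∀ (F : Type v) [Field F] (n : ℕ) (ρ : G →* Matrix.GeneralLinearGroup (Fin n) F) (g : G),
      ((∀ m : ℕ, 0 < m → ((ρ g : Matrix (Fin n) (Fin n) F) ^ m - 1) ^ n ≠ 0) → Van e g) ∧
      (∀ (p : ℕ) [Fact p.Prime] [CharP F p], (∀ m : ℕ, 0 < m → ρ g ^ m ≠ 1) → Van e g)) ∧
    (∀ (ℓ : G → ℝ), (∀ a b, ℓ (a * b) ≤ ℓ a + ℓ b) → ∀ g : G,
      ((∃ φ : G → ℝ, (∀ a b, Commute a g → Commute b g → φ (a * b) = φ a + φ b) ∧
          (∀ z, Commute z g → |φ z| ≤ ℓ z) ∧ φ g ≠ 0) → Van e g) ∧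
      ((∃ c : ℝ, 0 < c ∧ ∀ j : ℤ, c * |(j : ℝ)| ≤ ℓ (g ^ j)) →
        (Subgroup.zpowers g).relIndex (Subgroup.centralizer {g}) ≠ 0 → Van e g) ∧
      ((∃ c : ℝ, 0 < c ∧ ∀ j : ℤ, c * |(j : ℝ)| ≤ ℓ (g ^ j)) →
        (∃ m : (Subgroup.centralizer {g} → ℝ) → ℝ,
          (∀ f h : Subgroup.centralizer {g} → ℝ, (∃ B, ∀ z, |f z| ≤ B) → (∃ B, ∀ z, |h z| ≤ B) →
            m (fun z => f z + h z) = m f + m h) ∧
          (∀ (f : Subgroup.centralizer {g} → ℝ) (B : ℝ), (∃ B', ∀ z, |f z| ≤ B') →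
            (∀ z, f z ≤ B) → m f ≤ B) ∧
          (∀ (f : Subgroup.centralizer {g} → ℝ) (a : Subgroup.centralizer {g}),
            (∃ B, ∀ z, |f z| ≤ B) → m (fun z => f (a * z)) = m f)) →
        Van e g))) := by
  refine ⟨fun ι M _ => ⟨fun hG i q e ⟨hsum, hidem⟩ => ?_, fun hM q e ⟨hsum, hidem⟩ =>
      Vale.Agent.Lib.P184.Free.q1_coprodI_all (fun i q e h1 h2 => hM i q e ⟨h1, h2⟩) q e hsum hidem⟩,
    fun G _ q e ⟨hsum, hidem⟩ => ⟨fun X _ _ hiso => ⟨fun hCN => ⟨fun g o ⟨c, hc0, hc⟩ =>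
          (Vale.Agent.Lib.P184.CatZero.catzero_groups e hsum hidem hiso).2.1 hCN g o c hc0 hc,
        fun hX ⟨hproper, hcob⟩ =>
          (Vale.Agent.Lib.P184.CatZero.catzero_groups e hsum hidem hiso).2.2 hCN hX hproper hcob⟩,
      fun ⟨_, hyp⟩ => ⟨fun g o ⟨c, hc0, hc⟩ hwpd =>
          Vale.Agent.Lib.P184.Hyp.trace_vanish_of_wpd e hsum hidem hiso hyp g o c hc0 hc hwpd,
        fun ⟨μ, hmid⟩ => ⟨fun ⟨hproper, o, R, hcob⟩ =>
          Vale.Agent.Lib.P184.Hyp.q1_of_geometric_hyp e hsum hidem hiso hyp μ hmid hproper o R hcob,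
          fun hacyl g o hunb =>
            (Vale.Agent.Lib.P184.Hyp.acyl_main e hsum hidem hiso hyp μ hmid hacyl g o hunb).2.2⟩⟩⟩,
      fun _ _ _ ρ g =>
        ⟨fun hg => Vale.Agent.Lib.P184.Red.trace_vanish_of_field e hsum hidem ρ g hg,
          fun p _ _ hg => Vale.Agent.Lib.P184.Lin.trace_vanish_of_charP e hsum hidem p ρ g hg⟩,
      fun ℓ hℓ g => Vale.Agent.Lib.P184.CentCrit.centralizer_criterion e hsum hidem ℓ hℓ g⟩⟩
  classical
  exact Vale.Agent.Lib.P184.Free.q1_retract_down (Monoid.CoprodI.of : M i →* Monoid.CoprodI M)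
    (Monoid.CoprodI.lift (Pi.mulSingle i (MonoidHom.id (M i))))
    (fun m => Monoid.CoprodI.of_leftInverse i m) (fun q e h1 h2 => hG q e ⟨h1, h2⟩) q e hsum hidem

end Vale.Agent.Results.P184.AllResultsPlus
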