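import Vale.Agent.Lib.P184.Free.FMain2
import Vale.Agent.Lib.P184.Free.Retract
import Vale.Agent.Lib.P184.Free.Down

/-!
# P184: closure properties of the class of groups satisfying the `ℓ¹`-Bass conjecture

`L1Bass G` is the statement of Q1 for the single group `G`.

1. A free product of an arbitrary family of groups satisfies Q1 if and only if every factor does.
2. For an arbitrary family of groups (no hypothesis), and every idempotent matrix `e` over `ℓ¹` of their free product,
   `τ_C(e) = 0` for the conjugacy class `C` of every `g ≠ 1` which is not conjugate to an element of a factor.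
3. Retracts: if `H` is a retract of `G` then Q1 for `G` implies Q1 for `H`; conversely, if Q1 holds for `H`, then the conclusion of
   Q1 holds for every idempotent matrix over `ℓ¹(G)` whose trace vanishes at all classes of `G` which do not meet `H`.
4. If Q1 holds for `H`, and `K` acts by isometries on a metric space with the CN inequality in such a way that every `k ≠ 1` has an orbit
   escaping at linear speed, then Q1 holds for `H × K`.
-/

namespace Vale.Agent.Results.P184.FreeProducts

open scoped BigOperators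
open Vale.Agent.Lib.P184.Free

universe u v w

/-- the statement of Q1 for the group `G` -/
def L1Bass (G : Type u) [Group G] : Prop :=
  ∀ (q : ℕ) (e : Matrix (Fin q) (Fin q) (G → ℂ)),
    (∀ i j, Summable fun g => ‖e i j g‖) →
    (∀ i j g, ∑ k, ∑' h, e i k h * e k j (h⁻¹ * g) = e i j g) →
    ∃ F : Finset (ConjClasses G), (∀ C ∈ F, ∀ x ∈ C.carrier, IsOfFinOrder x) ∧
      ∀ C ∉ F, ∑' x : C.carrier, ∑ i, e i i x = 0

theorem result :
    (∀ (ι : Type u) (M : ι → Type v) [∀ i, Group (M i)],
      (L1Bass (Monoid.CoprodI M) ↔ ∀ i, L1Bass (M i)) ∧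
      (∀ (q : ℕ) (e : Matrix (Fin q) (Fin q) (Monoid.CoprodI M → ℂ)),
        (∀ i j, Summable fun g => ‖e i j g‖) →
        (∀ i j g, ∑ k, ∑' h, e i k h * e k j (h⁻¹ * g) = e i j g) →
        ∀ g : Monoid.CoprodI M, g ≠ 1 →
          (∀ (i : ι) (m : M i), ¬ IsConj g (Monoid.CoprodI.of m)) →
          ∑' x : (ConjClasses.mk g).carrier, ∑ i, e i i x = 0)) ∧
    (∀ (G : Type u) (H : Type v) [Group G] [Group H] (s : H →* G) (r : G →* H),
      (∀ h, r (s h) = h) →
      (L1Bass G → L1Bass H) ∧
      (L1Bass H → ∀ (q : ℕ) (e : Matrix (Fin q) (Fin q) (G → ℂ)),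
        (∀ i j, Summable fun g => ‖e i j g‖) →
        (∀ i j g, ∑ k, ∑' h, e i k h * e k j (h⁻¹ * g) = e i j g) →
        (∀ g : G, (∀ h : H, ¬ IsConj g (s h)) →
          ∑' x : (ConjClasses.mk g).carrier, ∑ i, e i i x = 0) →
        ∃ F : Finset (ConjClasses G), (∀ C ∈ F, ∀ x ∈ C.carrier, IsOfFinOrder x) ∧
          ∀ C ∉ F, ∑' x : C.carrier, ∑ i, e i i x = 0)) ∧
    (∀ (H : Type u) (K : Type v) [Group H] [Group K] (X : Type w) [MetricSpace X] [MulAction K X],
      (∀ (k : K) (x y : X), dist (k • x) (k • y) = dist x y) →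
      (∀ x y : X, ∃ m, ∀ z, dist z m ^ 2 ≤ (dist z x ^ 2 + dist z y ^ 2) / 2 - dist x y ^ 2 / 4) →
      (∀ k : K, k ≠ 1 → ∃ (o : X) (c : ℝ), 0 < c ∧ ∀ n : ℕ, c * n ≤ dist o (k ^ n • o)) →
      L1Bass H → L1Bass (H × K)) := by
  refine ⟨fun ι M _ => ⟨⟨fun hG i => ?_, fun hM q e hsum hidem => q1_coprodI_all hM q e hsum hidem⟩, ?_⟩,
    fun G H _ _ s r hrs => ⟨fun hG q e hsum hidem => q1_retract_down s r hrs hG q e hsum hidem,
      fun hH q e hsum hidem hkill => q1_of_retraction s r hrs hH q e hsum hidem hkill⟩,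
    fun H K _ _ X _ _ hiso hCN hK hH q e hsum hidem => q1_prod hiso hCN hK hH q e hsum hidem⟩
  · classical
    intro q e hsum hidem
    exact q1_retract_down (Monoid.CoprodI.of : M i →* Monoid.CoprodI M)
      (Monoid.CoprodI.lift (Pi.mulSingle i (MonoidHom.id (M i))))
      (fun m => Monoid.CoprodI.of_leftInverse i m) hG q e hsum hidem
  · intro q e hsum hidem g hg hconj
    rcases trichotomy g with rfl | ⟨i, m, u, rfl⟩ | ⟨i, j, w, u, hij, rfl⟩
    · exact absurd rfl hg
    · exfalso
      apply hconj i m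
      rw [isConj_comm, isConj_iff]
      exact ⟨u, rfl⟩
    · have h1 : ConjClasses.mk (u * w.prod * u⁻¹) = ConjClasses.mk w.prod := by
        rw [ConjClasses.mk_eq_mk_iff_isConj, isConj_comm, isConj_iff]
        exact ⟨u, rfl⟩
      rw [h1]
      exact trace_vanish_of_neword e hsum hidem w hij

end Vale.Agent.Results.P184.FreeProducts
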