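import Vale.Agent.Lib.P184.Hyp.GroupMain
import Vale.Agent.Lib.P184.Hyp.Acyl
import Vale.Agent.Lib.P184.AmenCent

/-!
# P184: the `ℓ¹`-Bass conjecture for actions on Gromov hyperbolic spaces

`e` is a `q × q` matrix with entries in `ℓ¹(G)` (absolutely summable functions `G → ℂ`) which is
idempotent for the convolution product; `G` acts by isometries on a metric space `X` which is Gromov
hyperbolic (four point condition with constant `δ`; no geodesics, properness or completeness assumed).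

1. If `g` is loxodromic (`dist o (g ^ n • o) ≥ c n`, `c > 0`) and satisfies the WPD condition of Bestvina and Fujiwara
   (for every `R` there is `N` such that only finitely many `h` move both `o` and `g ^ N • o` by at most `R`), then the
   cyclic group generated by `g` has finite index in the centralizer of `g`, and `τ_C(e) = 0` for the conjugacy class `C` of `g`.
2. If `X` has approximate midpoints and the action is acylindrical, then every `g` with an unbounded orbit is loxodromic, the cyclic group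
   generated by `g` has finite index in the centralizer of `g`, and `τ_C(e) = 0` for the conjugacy class `C` of `g`.
3. In the situation of 2, if `ℓ` is a subadditive function on `G` and every element `g` of infinite order with bounded orbits satisfies `ℓ (g ^ j) ≥ c |j|`
   and has a left invariant mean on its centralizer, then `τ_C(e) = 0` for the classes of all elements of infinite order.
4. If `X` has approximate midpoints and the action is metrically proper and cobounded (so `G` is a word hyperbolic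
   group), then there is a finite set `F` of conjugacy classes of elements of finite order (not depending on `e`) such that
   `τ_C(e) = 0` for all `C ∉ F`.
-/

namespace Vale.Agent.Results.P184.HyperbolicGroups

open scoped BigOperators
open Vale.Agent.Lib.P184.Hyp

theorem result {G : Type*} [Group G] {q : ℕ} (e : Matrix (Fin q) (Fin q) (G → ℂ))
    (hsum : ∀ i j, Summable fun g => ‖e i j g‖)
    (hidem : ∀ i j g, ∑ k, ∑' h, e i k h * e k j (h⁻¹ * g) = e i j g)
    {X : Type*} [MetricSpace X] [MulAction G X]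
    (hiso : ∀ (g : G) (x y : X), dist (g • x) (g • y) = dist x y) (δ : ℝ)
    (hyp : ∀ x y z w : X,
      dist x z + dist y w ≤ max (dist x y + dist z w) (dist x w + dist y z) + 2 * δ) :
    (∀ (g : G) (o : X) (c : ℝ), 0 < c → (∀ n : ℕ, c * n ≤ dist o (g ^ n • o)) →
      (∀ R : ℝ, ∃ N : ℕ,
        {h : G | dist o (h • o) ≤ R ∧ dist (g ^ N • o) (h • g ^ N • o) ≤ R}.Finite) →
      (Subgroup.zpowers g).relIndex (Subgroup.centralizer {g}) ≠ 0 ∧
        ∑' x : (ConjClasses.mk g).carrier, ∑ i, e i i x = 0) ∧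
    ((∃ μ : ℝ, ∀ a b : X, ∃ m, dist a m ≤ dist a b / 2 + μ ∧ dist m b ≤ dist a b / 2 + μ) →
      (∀ R : ℝ, ∃ (L : ℝ) (P : ℕ), ∀ (x y : X) (S : Finset G), L ≤ dist x y →
        (∀ h ∈ S, dist (h • x) x ≤ R ∧ dist (h • y) y ≤ R) → S.card ≤ P) →
      ∀ (g : G) (o : X), (∀ B : ℝ, ∃ n : ℕ, B < dist o (g ^ n • o)) →
        (∃ c : ℝ, 0 < c ∧ ∀ n : ℕ, c * n ≤ dist o (g ^ n • o)) ∧
        (Subgroup.zpowers g).relIndex (Subgroup.centralizer {g}) ≠ 0 ∧
        ∑' x : (ConjClasses.mk g).carrier, ∑ i, e i i x = 0) ∧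
    ((∃ μ : ℝ, ∀ a b : X, ∃ m, dist a m ≤ dist a b / 2 + μ ∧ dist m b ≤ dist a b / 2 + μ) →
      (∀ R : ℝ, ∃ (L : ℝ) (P : ℕ), ∀ (x y : X) (S : Finset G), L ≤ dist x y →
        (∀ h ∈ S, dist (h • x) x ≤ R ∧ dist (h • y) y ≤ R) → S.card ≤ P) →
      ∀ ℓ : G → ℝ, (∀ a b, ℓ (a * b) ≤ ℓ a + ℓ b) →
      (∀ g : G, ¬ IsOfFinOrder g → (∀ o : X, ∃ B : ℝ, ∀ n : ℕ, dist o (g ^ n • o) ≤ B) →
        (∃ c : ℝ, 0 < c ∧ ∀ j : ℤ, c * |(j : ℝ)| ≤ ℓ (g ^ j)) ∧
        ∃ m : (Subgroup.centralizer {g} → ℝ) → ℝ,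
          (∀ f h : Subgroup.centralizer {g} → ℝ, (∃ B, ∀ z, |f z| ≤ B) → (∃ B, ∀ z, |h z| ≤ B) →
            m (fun z => f z + h z) = m f + m h) ∧
          (∀ (f : Subgroup.centralizer {g} → ℝ) (B : ℝ), (∃ B', ∀ z, |f z| ≤ B') →
            (∀ z, f z ≤ B) → m f ≤ B) ∧
          (∀ (f : Subgroup.centralizer {g} → ℝ) (a : Subgroup.centralizer {g}),
            (∃ B, ∀ z, |f z| ≤ B) → m (fun z => f (a * z)) = m f)) →
      ∀ g : G, ¬ IsOfFinOrder g → ∑' x : (ConjClasses.mk g).carrier, ∑ i, e i i x = 0) ∧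
    ((∃ μ : ℝ, ∀ a b : X, ∃ m, dist a m ≤ dist a b / 2 + μ ∧ dist m b ≤ dist a b / 2 + μ) →
      (∀ (o : X) (R : ℝ), {g : G | dist (g • o) o ≤ R}.Finite) →
      (∃ (o : X) (R : ℝ), ∀ y : X, ∃ g : G, dist (g • o) y ≤ R) →
      ∃ F : Finset (ConjClasses G), (∀ C ∈ F, ∀ x ∈ C.carrier, IsOfFinOrder x) ∧
        ∀ C ∉ F, ∑' x : C.carrier, ∑ i, e i i x = 0) :=
  ⟨fun g o c hc0 hc hwpd =>
      ⟨relIndex_ne_zero_of_wpd hiso hyp g o c hc0 hc hwpd,
        trace_vanish_of_wpd e hsum hidem hiso hyp g o c hc0 hc hwpd⟩,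
    fun ⟨μ, hmid⟩ hacyl g o hunb => acyl_main e hsum hidem hiso hyp μ hmid hacyl g o hunb,
    fun ⟨μ, hmid⟩ hacyl ℓ hℓ hpar g hg => by
      by_cases hb : ∀ o : X, ∃ B : ℝ, ∀ n : ℕ, dist o (g ^ n • o) ≤ B
      · obtain ⟨⟨c, hc0, hc⟩, m, h1, h2, h3⟩ := hpar g hg hb
        exact Vale.Agent.Lib.P184.trace_vanish_of_amenable_centralizer e hsum hidem ℓ hℓ g c hc0 hc
          m h1 h2 h3
      · push Not at hb
        obtain ⟨o, ho⟩ := hb
        exact (acyl_main e hsum hidem hiso hyp μ hmid hacyl g o ho).2.2,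
    fun ⟨μ, hmid⟩ hproper ⟨o, R, hcob⟩ =>
      q1_of_geometric_hyp e hsum hidem hiso hyp μ hmid hproper o R hcob⟩

end Vale.Agent.Results.P184.HyperbolicGroups
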